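import Vale.Agent.Lib.P161.Rooted

/-!
# P161: the pointwise product of two spin fields
-/

namespace Vale.Agent.Lib.P161

open MeasureTheory ProbabilityTheory

variable {V : Type*} {G : SimpleGraph V}

/-- The pointwise product of two spin fields (`true` is `+1`, `false` is `-1`). -/
def mulField (p : (V → Bool) × (V → Bool)) : V → Bool := fun v => (p.1 v == p.2 v)

theorem measurable_mulField : Measurable (mulField (V := V)) := by
  rw [measurable_pi_iff]
  intro v
  have h1 : Measurable (fun q : Bool × Bool => (q.1 == q.2)) := measurable_of_countable _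
  have h2 : Measurable (fun p : (V → Bool) × (V → Bool) => (p.1 v, p.2 v)) :=
    ((measurable_pi_apply v).comp measurable_fst).prodMk
      ((measurable_pi_apply v).comp measurable_snd)
  exact h1.comp h2

theorem obs_edge (o u v : V) (he : s(u, v) ∈ G.edgeSet) (σ : V → Bool) :
    obs G o (some ⟨s(u, v), he⟩) σ = decide (σ u = σ v) := by
  simp only [obs, Sym2.mem_iff, forall_eq_or_imp, forall_eq]
  congr 1
  apply propext
  constructor
  · intro h; exact h.1.2
  · intro h; exact ⟨⟨trivial, h⟩, ⟨h.symm, trivial⟩⟩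

theorem beq_aux : ∀ a b c d : Bool,
    decide ((a == c) = (b == d)) = (decide (a = b) == decide (c = d)) := by decide

/-- every observable of the product field is the product of the observables -/
theorem obs_mulField (o : V) (i : Option G.edgeSet) (p : (V → Bool) × (V → Bool)) :
    obs G o i (mulField p) = (obs G o i p.1 == obs G o i p.2) := by
  cases i with
  | none => rfl
  | some e =>
    obtain ⟨e, he⟩ := e
    induction e using Sym2.ind with
    | _ u v =>
      rw [obs_edge, obs_edge, obs_edge]
      exact beq_aux _ _ _ _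

/-- the probability that the product of two independent signs is `+1` -/
theorem measure_beq {Ω₁ Ω₂ : Type*} [MeasurableSpace Ω₁] [MeasurableSpace Ω₂]
    {μ₁ : Measure Ω₁} {μ₂ : Measure Ω₂} [IsProbabilityMeasure μ₁] [IsProbabilityMeasure μ₂]
    {X : Ω₁ → Bool} {Y : Ω₂ → Bool} (mX : Measurable X) (mY : Measurable Y) {s t : ℝ}
    (hs : -1 ≤ s) (hs' : s ≤ 1) (ht : -1 ≤ t) (ht' : t ≤ 1)
    (hX : μ₁ {x | X x = true} = ENNReal.ofReal ((1 + s) / 2))
    (hY : μ₂ {y | Y y = true} = ENNReal.ofReal ((1 + t) / 2)) :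
    (μ₁.prod μ₂) {p | (X p.1 == Y p.2) = true} = ENNReal.ofReal ((1 + s * t) / 2) := by
  have mA : MeasurableSet {x | X x = true} := mX (measurableSet_singleton true)
  have mB : MeasurableSet {y | Y y = true} := mY (measurableSet_singleton true)
  have hXc : μ₁ {x | X x = true}ᶜ = ENNReal.ofReal ((1 - s) / 2) := by
    rw [prob_compl_eq_one_sub mA, hX, ← ENNReal.ofReal_one,
      ← ENNReal.ofReal_sub _ (by linarith)]
    congr 1
    ring
  have hYc : μ₂ {y | Y y = true}ᶜ = ENNReal.ofReal ((1 - t) / 2) := by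
    rw [prob_compl_eq_one_sub mB, hY, ← ENNReal.ofReal_one,
      ← ENNReal.ofReal_sub _ (by linarith)]
    congr 1
    ring
  have hset : {p : Ω₁ × Ω₂ | (X p.1 == Y p.2) = true}
      = ({x | X x = true} ×ˢ {y | Y y = true}) ∪ ({x | X x = true}ᶜ ×ˢ {y | Y y = true}ᶜ) := by
    ext p
    simp only [Set.mem_ofPred_eq, Set.mem_union, Set.mem_prod, Set.mem_compl_iff]
    cases X p.1 <;> cases Y p.2 <;> simp
  have hdisj : Disjoint ({x | X x = true} ×ˢ {y | Y y = true})
      ({x | X x = true}ᶜ ×ˢ {y | Y y = true}ᶜ) := by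
    rw [Set.disjoint_left]
    rintro p ⟨h1, _⟩ ⟨h2, _⟩
    exact h2 h1
  rw [hset, measure_union hdisj (mA.compl.prod mB.compl), Measure.prod_prod, Measure.prod_prod,
    hX, hY, hXc, hYc, ← ENNReal.ofReal_mul (by linarith), ← ENNReal.ofReal_mul (by linarith),
    ← ENNReal.ofReal_add (mul_nonneg (by linarith) (by linarith))
      (mul_nonneg (by linarith) (by linarith))]
  congr 1
  ring

end Vale.Agent.Lib.P161
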