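import Mathlib

/-!
# P161: products of two independent families of Boolean variables are independent
-/

namespace Vale.Agent.Lib.P161

open MeasureTheory ProbabilityTheory

theorem iIndepFun_beq {Ω₁ Ω₂ ι : Type*} [MeasurableSpace Ω₁] [MeasurableSpace Ω₂]
    {μ₁ : Measure Ω₁} {μ₂ : Measure Ω₂} {X : ι → Ω₁ → Bool} {Y : ι → Ω₂ → Bool}
    (mX : ∀ i, Measurable (X i)) (mY : ∀ i, Measurable (Y i))
    (hX : iIndepFun X μ₁) (hY : iIndepFun Y μ₂) :
    iIndepFun (fun i (p : Ω₁ × Ω₂) => (X i p.1 == Y i p.2)) (μ₁.prod μ₂) := by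
  have hp1 := hX.isProbabilityMeasure
  have hp2 := hY.isProbabilityMeasure
  rw [iIndepFun_iff_measure_inter_preimage_eq_mul]
  intro S sets _
  let t : ι → Bool → Set Bool := fun i c => {b | (c == b) ∈ sets i}
  let φ : ι → Bool → ENNReal := fun i c => μ₂ (Y i ⁻¹' t i c)
  have mZ : ∀ i, Measurable (fun p : Ω₁ × Ω₂ => (X i p.1 == Y i p.2)) := by
    intro i
    have h1 : Measurable (fun p : Ω₁ × Ω₂ => (X i p.1, Y i p.2)) :=
      ((mX i).comp measurable_fst).prodMk ((mY i).comp measurable_snd)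
    have h2 : Measurable (fun q : Bool × Bool => (q.1 == q.2)) := measurable_of_countable _
    exact h2.comp h1
  have single : ∀ i, (μ₁.prod μ₂) ((fun p : Ω₁ × Ω₂ => (X i p.1 == Y i p.2)) ⁻¹' sets i)
      = ∫⁻ x, φ i (X i x) ∂μ₁ := by
    intro i
    rw [Measure.prod_apply (mZ i (MeasurableSet.of_discrete))]
    rfl
  have inter : (μ₁.prod μ₂) (⋂ i ∈ S, (fun p : Ω₁ × Ω₂ => (X i p.1 == Y i p.2)) ⁻¹' sets i)
      = ∫⁻ x, ∏ i ∈ S, φ i (X i x) ∂μ₁ := by
    rw [Measure.prod_apply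
      (Finset.measurableSet_biInter S (fun i _ => mZ i (MeasurableSet.of_discrete)))]
    refine lintegral_congr fun x => ?_
    have e : Prod.mk x ⁻¹' (⋂ i ∈ S, (fun p : Ω₁ × Ω₂ => (X i p.1 == Y i p.2)) ⁻¹' sets i)
        = ⋂ i ∈ S, Y i ⁻¹' t i (X i x) := by
      ext y
      simp [t]
    rw [e, hY.measure_inter_preimage_eq_mul S (fun i _ => MeasurableSet.of_discrete)]
  rw [inter, lintegral_prod_eq_prod_lintegral_of_indepFun S (fun i x => φ i (X i x))
    (hX.comp φ (fun i => measurable_of_countable _))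
    (fun i => (measurable_of_countable (φ i)).comp (mX i))]
  exact Finset.prod_congr rfl (fun i _ => (single i).symm)

end Vale.Agent.Lib.P161
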