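import Vale.Agent.Lib.P161.Rooted

/-!
# P161: the two halves of the split labels
-/

namespace Vale.Agent.Lib.P161

open MeasureTheory ProbabilityTheory

variable {V : Type*}

/-- Independence of the labels of finitely many disjoint blocks of coordinates. -/
theorem iidLaw_blocks {ι : Type*} {K : Type*} [Fintype K] {κ : K → Type*}
    (φ : (Σ k, κ k) → ι) (hφ : Function.Injective φ)
    (F : ∀ k, Set (κ k → unitInterval)) (hF : ∀ k, MeasurableSet (F k)) :
    iidLaw ι {ω | ∀ k, (fun g => ω (φ ⟨k, g⟩)) ∈ F k} = ∏ k, iidLaw (κ k) (F k) := by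
  have h1 : (iidLaw ι).map (fun ω (p : Σ k, κ k) => ω (φ p)) = iidLaw (Σ k, κ k) :=
    Measure.map_infinitePi_infinitePi_of_inj (P := fun _ : ι => (volume : Measure unitInterval)) hφ
  have h2 : (iidLaw (Σ k, κ k)).map
      (MeasurableEquiv.piCurry (fun (k : K) (_ : κ k) => unitInterval)) =
      Measure.infinitePi (fun k => iidLaw (κ k)) :=
    Measure.infinitePi_map_piCurry (fun (k : K) (_ : κ k) => (volume : Measure unitInterval))
  have h3 : {ω : ι → unitInterval | ∀ k, (fun g => ω (φ ⟨k, g⟩)) ∈ F k} =
      (fun ω (p : Σ k, κ k) => ω (φ p)) ⁻¹'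
        ((MeasurableEquiv.piCurry (fun (k : K) (_ : κ k) => unitInterval)) ⁻¹'
          (Set.pi (Finset.univ : Finset K) F)) := by
    ext ω
    simp only [Set.mem_ofPred_eq, Set.mem_preimage, Set.mem_pi, Finset.coe_univ, Set.mem_univ,
      forall_true_left]
    rfl
  have hm : MeasurableSet (Set.pi (↑(Finset.univ : Finset K)) F) :=
    MeasurableSet.pi (Finset.countable_toSet _) (fun k _ => hF k)
  rw [h3, ← Measure.map_apply (by fun_prop) ((MeasurableEquiv.measurable _) hm), h1,
    ← Measure.map_apply (MeasurableEquiv.measurable _) hm, h2,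
    Measure.infinitePi_pi _ (fun k _ => hF k)]

/-- the two halves of a field indexed by `V × Bool` -/
def halves (ω : V × Bool → unitInterval) : (V → unitInterval) × (V → unitInterval) :=
  (fun v => ω (v, false), fun v => ω (v, true))

theorem measurable_halves : Measurable (halves (V := V)) := by
  refine Measurable.prodMk ?_ ?_
  · rw [measurable_pi_iff]; intro v; exact measurable_pi_apply _
  · rw [measurable_pi_iff]; intro v; exact measurable_pi_apply _

theorem map_halves : (iidLaw (V × Bool)).map halves = (iidLaw V).prod (iidLaw V) := by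
  symm
  apply Measure.prod_eq
  intro s t hs ht
  rw [Measure.map_apply measurable_halves (hs.prod ht)]
  have hφ : Function.Injective (fun p : (Σ _ : Bool, V) => ((p.2, p.1) : V × Bool)) := by
    rintro ⟨a, b⟩ ⟨c, d⟩ h
    simp only [Prod.mk.injEq] at h
    obtain ⟨h1, h2⟩ := h
    subst h1; subst h2; rfl
  have h := iidLaw_blocks (K := Bool) (κ := fun _ => V)
    (fun p : (Σ _ : Bool, V) => ((p.2, p.1) : V × Bool)) hφ
    (fun k => if k then t else s) (fun k => by cases k <;> simpa)
  have hset : halves ⁻¹' (s ×ˢ t) = {ω : V × Bool → unitInterval |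
      ∀ k : Bool, (fun g => ω ((fun p : (Σ _ : Bool, V) => ((p.2, p.1) : V × Bool)) ⟨k, g⟩)) ∈
        (if k then t else s)} := by
    ext ω
    simp only [Set.mem_preimage, Set.mem_prod, halves, Set.mem_ofPred_eq, Bool.forall_bool]
    simp
  rw [hset, h]
  simp [mul_comm]

/-- the two halves of the split labels are independent families of i.i.d. uniform labels -/
theorem map_spl_pair {τ : unitInterval → (Bool → unitInterval)} (hτ : Measurable τ)
    (hmap : (volume : Measure unitInterval).map τ = iidLaw Bool) :
    (iidLaw V).map (fun U => ((fun v => τ (U v) false), (fun v => τ (U v) true))) =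
      (iidLaw V).prod (iidLaw V) := by
  have h : (fun U : V → unitInterval => ((fun v => τ (U v) false), (fun v => τ (U v) true))) =
      halves ∘ spl τ := by
    funext U
    rfl
  rw [h, ← Measure.map_map measurable_halves (measurable_spl hτ), map_spl hτ hmap, map_halves]

end Vale.Agent.Lib.P161
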