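import Vale.Agent.Lib.P161.Mul.Basic
import Vale.Agent.Lib.P161.Mul.Indep
import Vale.Agent.Lib.P161.Mul.Pair

/-!
# P161: the product of two independent free Ising fields; products of factors of IID
-/

namespace Vale.Agent.Lib.P161

open MeasureTheory ProbabilityTheory

variable {V : Type*} {G : SimpleGraph V}

theorem isFreeIsing_mul {θ₁ θ₂ : ℝ} (h0₁ : 0 ≤ θ₁) (h1₁ : θ₁ ≤ 1) (h0₂ : 0 ≤ θ₂) (h1₂ : θ₂ ≤ 1)
    {μ₁ μ₂ : Measure (V → Bool)} (h₁ : IsFreeIsing G θ₁ μ₁) (h₂ : IsFreeIsing G θ₂ μ₂) :
    IsFreeIsing G (θ₁ * θ₂) ((μ₁.prod μ₂).map mulField) := by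
  obtain ⟨hp₁, h₁⟩ := h₁
  obtain ⟨hp₂, h₂⟩ := h₂
  refine ⟨Measure.isProbabilityMeasure_map measurable_mulField.aemeasurable, fun o => ?_⟩
  obtain ⟨hi₁, hr₁, he₁⟩ := h₁ o
  obtain ⟨hi₂, hr₂, he₂⟩ := h₂ o
  have hpre : ∀ (i : Option G.edgeSet) (s : Set Bool),
      mulField ⁻¹' (obs G o i ⁻¹' s) =
        (fun p : (V → Bool) × (V → Bool) => (obs G o i p.1 == obs G o i p.2)) ⁻¹' s := by
    intro i s
    ext p
    simp only [Set.mem_preimage, obs_mulField]
  have hind := iIndepFun_beq (measurable_obs G o) (measurable_obs G o) hi₁ hi₂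
  refine ⟨?_, ?_, ?_⟩
  · rw [iIndepFun_iff_measure_inter_preimage_eq_mul]
    intro S sets _
    have h1 := (iIndepFun_iff_measure_inter_preimage_eq_mul.1 hind) S
      (sets := sets) (fun i _ => MeasurableSet.of_discrete)
    have hm : MeasurableSet (⋂ i ∈ S, obs G o i ⁻¹' sets i) :=
      Finset.measurableSet_biInter S
        (fun i _ => measurable_obs G o i MeasurableSet.of_discrete)
    rw [Measure.map_apply measurable_mulField hm]
    simp only [Set.preimage_iInter, hpre]
    rw [h1]
    refine Finset.prod_congr rfl (fun i _ => ?_)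
    rw [Measure.map_apply measurable_mulField
      (measurable_obs G o i MeasurableSet.of_discrete), hpre]
  · rw [show {σ | obs G o none σ = true} = obs G o none ⁻¹' {true} from rfl,
      Measure.map_apply measurable_mulField (measurable_obs G o none MeasurableSet.of_discrete),
      hpre none {true}]
    have := measure_beq (μ₁ := μ₁) (μ₂ := μ₂) (measurable_obs G o none) (measurable_obs G o none)
      (s := 0) (t := 0) (by norm_num) (by norm_num) (by norm_num) (by norm_num)
      (by rw [hr₁]; norm_num) (by rw [hr₂]; norm_num)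
    have h2 : ((1 : ℝ) + 0 * 0) / 2 = 1 / 2 := by norm_num
    rw [h2] at this
    exact this
  · intro e
    rw [show {σ | obs G o (some e) σ = true} = obs G o (some e) ⁻¹' {true} from rfl,
      Measure.map_apply measurable_mulField (measurable_obs G o _ MeasurableSet.of_discrete),
      hpre (some e) {true}]
    exact measure_beq (measurable_obs G o _) (measurable_obs G o _)
      (by linarith) h1₁ (by linarith) h1₂ (he₁ e) (he₂ e)

theorem isFIID_mul {μ₁ μ₂ : Measure (V → Bool)} (h₁ : IsFIID G μ₁) (h₂ : IsFIID G μ₂) :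
    IsFIID G ((μ₁.prod μ₂).map mulField) := by
  obtain ⟨Φ₁, m₁, e₁, rfl⟩ := h₁
  obtain ⟨Φ₂, m₂, e₂, rfl⟩ := h₂
  obtain ⟨τ, hτ, hmap⟩ := exists_split (F := Bool)
  have hpair := map_spl_pair (V := V) hτ hmap
  set half : Bool → (V → unitInterval) → (V → unitInterval) := fun c U v => τ (U v) c with hhalf
  have mhalf : ∀ c, Measurable (half c) := by
    intro c
    rw [measurable_pi_iff]
    intro v
    exact (measurable_pi_apply c).comp (hτ.comp (measurable_pi_apply v))
  have mpair : Measurable (fun U : V → unitInterval => (half false U, half true U)) :=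
    (mhalf false).prodMk (mhalf true)
  have hlaw : ∀ c, (iidLaw V).map (half c) = iidLaw V := by
    intro c
    cases c with
    | false =>
      have : half false = Prod.fst ∘ (fun U : V → unitInterval => (half false U, half true U)) :=
        rfl
      rw [this, ← Measure.map_map measurable_fst mpair, hpair, Measure.map_fst_prod]
      simp
    | true =>
      have : half true = Prod.snd ∘ (fun U : V → unitInterval => (half false U, half true U)) :=
        rfl
      rw [this, ← Measure.map_map measurable_snd mpair, hpair, Measure.map_snd_prod]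
      simp
  refine ⟨fun U => mulField (Φ₁ (half false U), Φ₂ (half true U)),
    measurable_mulField.comp ((m₁.comp (mhalf false)).prodMk (m₂.comp (mhalf true))),
    fun g => ?_, ?_⟩
  · have a₁ := e₁ g
    have a₂ := e₂ g
    rw [← hlaw false] at a₁
    rw [← hlaw true] at a₂
    have b₁ := ae_of_ae_map (mhalf false).aemeasurable a₁
    have b₂ := ae_of_ae_map (mhalf true).aemeasurable a₂
    filter_upwards [b₁, b₂] with U hU₁ hU₂
    have c₁ : half false (act g U) = act g (half false U) := rfl
    have c₂ : half true (act g U) = act g (half true U) := rfl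
    rw [c₁, c₂, hU₁, hU₂]
    rfl
  · have h3 : (fun U => mulField (Φ₁ (half false U), Φ₂ (half true U))) =
        mulField ∘ (Prod.map Φ₁ Φ₂) ∘ (fun U : V → unitInterval => (half false U, half true U)) :=
      rfl
    rw [h3, ← Measure.map_map measurable_mulField ((m₁.prodMap m₂).comp mpair),
      ← Measure.map_map (m₁.prodMap m₂) mpair, hpair, Measure.map_prod_map _ _ m₁ m₂]

end Vale.Agent.Lib.P161
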